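import Vale.Agent.Lib.P037.Defs
import Vale.Agent.Lib.P037.Final

open Vale.Agent.Lib.P037 in
/-- Polynomial removal for every `2 × 2` binary pattern in ordered `n × n` binary matrices. -/
theorem Vale.Agent.Results.P037.A_main.result (H : Fin 2 → Fin 2 → Bool) :
    ∃ (c : ℝ) (C : ℕ), 0 < c ∧ 0 < C ∧ ∀ n : ℕ, 1 ≤ n → ∀ ε : ℝ, 0 < ε → ε < 1 →
      ∀ A : Fin n → Fin n → Bool, FarFromFree H ε A →
        c * ε ^ C * (n : ℝ) ^ (2 * 2) ≤ (orderedCopies H A : ℝ) :=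
  removal_two_by_two H
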