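import Vale.Agent.Lib.P037.Defs
import Vale.Agent.Lib.P037X.Final

open Vale.Agent.Lib.P037 in
/-- Double-exponential removal for ordered binary matrices, for every pattern size `k`: there is a
constant `C = C(k)` such that every `n × n` binary matrix that is `ε`-far from `H`-free contains at
least `exp (-exp (C / ε ^ C)) * n ^ (2 * k)` ordered copies of the `k × k` pattern `H`. -/
theorem Vale.Agent.Results.P037.B_dexp.result (k : ℕ) :
    ∃ C : ℕ, 0 < C ∧ ∀ (H : Fin k → Fin k → Bool) (n : ℕ), 1 ≤ n → ∀ ε : ℝ, 0 < ε → ε < 1 →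
      ∀ A : Fin n → Fin n → Bool, FarFromFree H ε A →
        Real.exp (-Real.exp ((C : ℝ) / ε ^ C)) * (n : ℝ) ^ (2 * k) ≤ (orderedCopies H A : ℝ) :=
  Vale.Agent.Lib.P037X.dexp_removal k
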